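import Mathlib
import Vale.Agent.Lib.P256.Shadow
import Vale.Agent.Lib.P256.Factors

/-!
P256 (Projected Lax conjecture): reduction to the irreducible factors of the given polynomial.

For every number of variables `n`:

* (1) if `p` is hyperbolic with respect to `e` and `K(q, e)` is a spectrahedral shadow for every
  irreducible divisor `q` of `p` that is hyperbolic with respect to `e`, then `K(p, e)` is a
  spectrahedral shadow (only the factors of `p` itself are needed);
* (2) if `p` is hyperbolic with respect to `e` and every irreducible divisor of `p` has total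
  degree at most one, then `K(p, e)` is a spectrahedral shadow;
* (3) if `p` and `q` are hyperbolic with respect to `e`, then so is `p * q`, its hyperbolicity
  cone is `K(p, e) ∩ K(q, e)`, and it is a spectrahedral shadow as soon as both `K(p, e)` and
  `K(q, e)` are;
* (4) if `p * q` is hyperbolic with respect to `e`, then `p` and `q` are, up to a common sign.
-/

namespace Vale.Agent.Results.P256.ReductionToFactors

open Vale.Agent.Lib.P256 MvPolynomial

theorem result (n : ℕ) :
    (∀ (p : MvPolynomial (Fin n) ℝ) (e : Fin n → ℝ), Hyperbolic p e →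
      (∀ q : MvPolynomial (Fin n) ℝ, Irreducible q → q ∣ p → Hyperbolic q e →
        IsShadow (cone q e)) →
      IsShadow (cone p e)) ∧
    (∀ (p : MvPolynomial (Fin n) ℝ) (e : Fin n → ℝ), Hyperbolic p e →
      (∀ q : MvPolynomial (Fin n) ℝ, Irreducible q → q ∣ p → q.totalDegree ≤ 1) →
      IsShadow (cone p e)) ∧
    (∀ (p q : MvPolynomial (Fin n) ℝ) (e : Fin n → ℝ), Hyperbolic p e → Hyperbolic q e →
      Hyperbolic (p * q) e ∧ cone (p * q) e = cone p e ∩ cone q e ∧
        (IsShadow (cone p e) → IsShadow (cone q e) → IsShadow (cone (p * q) e))) ∧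
    (∀ (p q : MvPolynomial (Fin n) ℝ) (e : Fin n → ℝ), Hyperbolic (p * q) e →
      (Hyperbolic p e ∧ Hyperbolic q e) ∨ (Hyperbolic (-p) e ∧ Hyperbolic (-q) e)) := by
  refine ⟨?_, ?_, ?_, ?_⟩
  · intro p e hp H
    exact factor_reduction n e p H (Or.inl hp)
  · intro p e hp H
    exact shadow_of_linear_factors n p e hp H
  · intro p q e hp hq
    refine ⟨hyp_mul hp hq, cone_mul p q e, ?_⟩
    intro h1 h2
    rw [cone_mul]
    exact shadow_inter h1 h2
  · intro p q e h
    have hp := hyp_factor h
    have hq : Hyperbolic q e ∨ Hyperbolic (-q) e := by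
      rw [mul_comm] at h
      exact hyp_factor h
    have hpos := h.2.1
    rw [map_mul] at hpos
    rcases hp with hp | hp <;> rcases hq with hq | hq
    · exact Or.inl ⟨hp, hq⟩
    · exfalso
      have h1 := hp.2.1
      have h2 := hq.2.1
      rw [map_neg] at h2
      nlinarith
    · exfalso
      have h1 := hp.2.1
      have h2 := hq.2.1
      rw [map_neg] at h1
      nlinarith
    · exact Or.inr ⟨hp, hq⟩

end Vale.Agent.Results.P256.ReductionToFactors
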